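import Vale.Agent.P181.Sym

namespace Vale.Agent.Results.P181.Quadratic

open Vale.Agent.P181

theorem result (V : Type*) [AddCommGroup V] [Module ℂ V] [FiniteDimensional ℂ V] (a b : ℕ)
    (ha : 1 ≤ a) (hb : (a - 1) ^ 2 ≤ b) :
    (∃ Ψ : SymmetricPower ℂ (Fin a) (SymmetricPower ℂ (Fin b) V) →ₗ[ℂ]
        SymmetricPower ℂ (Fin b) (SymmetricPower ℂ (Fin a) V),
      IsFH Ψ ∧ Equivariant Ψ ∧ Function.Injective Ψ) ∧
    (∃ Φ : SymmetricPower ℂ (Fin b) (SymmetricPower ℂ (Fin a) V) →ₗ[ℂ]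
        SymmetricPower ℂ (Fin a) (SymmetricPower ℂ (Fin b) V),
      IsFH Φ ∧ Equivariant Φ ∧ Function.Surjective Φ) := by
  obtain ⟨Ψ, h1⟩ := exists_FH (ι := Fin a) (κ := Fin b) (Module.finBasis ℂ V)
  obtain ⟨Φ, h2⟩ := exists_FH (ι := Fin b) (κ := Fin a) (Module.finBasis ℂ V)
  exact ⟨⟨Ψ, h1, fun g u => DFunLike.congr_fun (FH_equiv h1 _) u, FH_inj (by simpa using hb) h1⟩,
    Φ, h2, fun g u => DFunLike.congr_fun (FH_equiv h2 _) u, FH_surj (by simpa using hb) h2⟩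

end Vale.Agent.Results.P181.Quadratic
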